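import Vale.Agent.P333.Poly

open Vale.Agent.P333

theorem Vale.Agent.Results.P333.TwoApprox.result :
    ∃ f : List (List (List Bool)) → List (List Bool),
      (∃ M : Turing.TM2ComputableInPolyTime codeInst codeWord f, ∀ k, Finite (M.tm.Γ k)) ∧
      ∀ S, IsSuperstring S (f S) ∧ (f S).length ≤ 2 * OPT S :=
  two_approx
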